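import Crest.Agent.R172.Defs

/-! Row 172: the abstract crystal interface between blocks L1 (representation theory) and L2 (patterns).
Weights in doubled coordinates, `n = m + 1`, nodes `Fin (m + 1)`. -/

set_option autoImplicit false

namespace Crest.Agent.R172

open Crest.AlgebraR.SpinSaturation

/-- doubled simple roots: `ε_i - ε_{i+1}` (`i < m`) and `ε_{m-1} + ε_m` (`i = m`), 0-based -/
def rt (m : ℕ) (i : Fin (m + 1)) : Fin (m + 1) → ℤ := fun j =>
  if (i : ℕ) < m then (if (j : ℕ) = i then 2 else if (j : ℕ) = i + 1 then -2 else 0)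
  else (if (j : ℕ) + 1 = m ∨ (j : ℕ) = m then 2 else 0)

/-- twice the pairing of the weight `a / 2` with the simple coroot `i` -/
def pr (m : ℕ) (i : Fin (m + 1)) (a : Fin (m + 1) → ℤ) : ℤ :=
  if h : (i : ℕ) < m then a i - a ⟨i + 1, by omega⟩ else a ⟨m - 1, by omega⟩ + a (Fin.last m)

/-- A finite seminormal crystal with one highest element (weight `mu`) and, for every dominant weight with
Dynkin labels `lam`, a choice of a violated node that is constant on the violating part of each string. -/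
structure Cry (m : ℕ) (mu : Fin (m + 1) → ℤ) (B : Type) where
  fin : Finite B
  wt : B → Fin (m + 1) → ℤ
  eps : Fin (m + 1) → B → ℕ
  phi : Fin (m + 1) → B → ℕ
  e : Fin (m + 1) → B → B
  f : Fin (m + 1) → B → B
  pair : ∀ i b, pr m i (wt b) = 2 * ((phi i b : ℤ) - eps i b)
  f_wt : ∀ i b, 0 < phi i b → wt (f i b) = wt b - rt m i
  f_eps : ∀ i b, 0 < phi i b → eps i (f i b) = eps i b + 1
  e_f : ∀ i b, 0 < phi i b → e i (f i b) = b
  f_e : ∀ i b, 0 < eps i b → 0 < phi i (e i b) ∧ f i (e i b) = b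
  top : ∃ b0, wt b0 = mu ∧ ∀ b, (∀ i, eps i b = 0) ↔ b = b0
  sel : ∀ lam : Fin (m + 1) → ℕ, ∃ ι : B → Fin (m + 1),
    (∀ b, (∃ i, lam i < eps i b) → lam (ι b) < eps (ι b) b) ∧
      ∀ i b, lam i < eps i b → 0 < phi i b → (ι (f i b) = i ↔ ι b = i)

/-- Output of block L1: the Littlewood–Richardson rule for an abstract crystal. -/
def S_L1 : Prop :=
  ∀ (m : ℕ), 1 ≤ m → ∀ (a b c : Fin (m + 1) → ℤ),
    IsDominantIntegral (m + 1) a → IsDominantIntegral (m + 1) b → IsDominantIntegral (m + 1) c →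
    ∀ (U : Irrep (m + 1) a) (V : Irrep (m + 1) b) (W : Irrep (m + 1) c) (B : Type) (K : Cry m b B),
      HasInvariant U V W ↔ ∃ x : B, (∀ i, 2 * (K.eps i x : ℤ) ≤ pr m i a) ∧ a + K.wt x = dual c

/-- Output of block L2: the crystal of patterns and its dictionary with lattice hives. -/
def S_L2 : Prop :=
  ∀ (m : ℕ), 1 ≤ m → ∀ b : Fin (m + 1) → ℤ, IsDominantIntegral (m + 1) b →
    ∃ (B : Type) (K : Cry m b B), ∀ a c : Fin (m + 1) → ℤ, IsDominantIntegral (m + 1) a →
      ((∃ x : B, (∀ i, 2 * (K.eps i x : ℤ) ≤ pr m i a) ∧ a + K.wt x = c) ↔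
        ∃ h : Arr, IsHive m (wt a) (wt b) (wt c) h ∧ IsLat m h)

theorem lr_of (h1 : S_L1) (h2 : S_L2) : S_LR := by
  intro m hm a b c ha hb hc _ U V W
  obtain ⟨B, K, hK⟩ := h2 m hm b hb
  rw [h1 m hm a b c ha hb hc U V W B K, hK a (dual c) ha]

end Crest.Agent.R172
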