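import Crest.Prelude.Def_SpinSaturation

/-! Row 172: the local `D_n` hive model (see `notes172/model.md`).  Here `n = m + 1`; weights are
functions `ℕ → ℚ` read at the indices `1, …, m + 1` (ε-coordinates, NOT doubled). -/

set_option autoImplicit false

namespace Crest.Agent.R172

open Crest.AlgebraR.SpinSaturation

/-- ε-coordinate `i` (1-based) of the weight with doubled coordinates `a`. -/
def wt {n : ℕ} (a : Fin n → ℤ) (i : ℕ) : ℚ :=
  if h : 1 ≤ i ∧ i ≤ n then (a ⟨i - 1, by omega⟩ : ℚ) / 2 else 0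

/-- `-w₀` on doubled weights: the last coordinate is multiplied by `(-1)^n`. -/
def dual {n : ℕ} (c : Fin n → ℤ) : Fin n → ℤ :=
  fun i => if (i : ℕ) + 1 = n then (-1) ^ n * c i else c i

/-- the sign attached to a Boolean. -/
def sg (e : Bool) : ℚ := if e then 1 else -1

/-- An array of hive values: `x k t` (`0 ≤ k ≤ t ≤ m`), `y k t` (`1 ≤ k ≤ t ≤ m`), `s e k` (`0 ≤ k ≤ m + 1`). -/
structure Arr where
  x : ℕ → ℕ → ℚ
  y : ℕ → ℕ → ℚ
  s : Bool → ℕ → ℚ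

/-- Lusztig datum `P1(k+1,t+1)`. -/
def Arr.p1 (h : Arr) (k t : ℕ) : ℚ := h.y (k + 1) (t + 1) + h.x k t - h.y (k + 1) t - h.x k (t + 1)
/-- Lusztig datum `P2(k+1,t+1)`. -/
def Arr.p2 (h : Arr) (k t : ℕ) : ℚ :=
  h.y (k + 1) (t + 1) + h.x (k + 1) t - h.y (k + 1) t - h.x (k + 1) (t + 1)
/-- Lusztig datum `Pf(k+1,e)` (top row `m`). -/
def Arr.pf (h : Arr) (m : ℕ) (k : ℕ) (e : Bool) : ℚ := h.s e (k + 1) + h.s (!e) k - h.y (k + 1) m

/-- The boundary conditions of a `D_{m+1}` hive for `V_ν ⊂ V_λ ⊗ V_μ`. -/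
structure IsBdry (m : ℕ) (lam mu nu : ℕ → ℚ) (h : Arr) : Prop where
  x00 : h.x 0 0 = 0
  x0 : ∀ t, t + 1 ≤ m → h.x 0 (t + 1) = h.x 0 t + lam (t + 1)
  yd : ∀ k, k + 1 ≤ m → h.y (k + 1) (k + 1) = h.x k k + nu (k + 1)
  xd : ∀ k, k + 1 ≤ m → h.x (k + 1) (k + 1) = h.y (k + 1) (k + 1) + mu (k + 1)
  top : ∀ k, k ≤ m → h.x k m = h.s true k + h.s false k
  s0 : ∀ e, h.s e 0 = (h.x 0 m + sg e * lam (m + 1)) / 2
  sm : ∀ e, h.s e m = (h.x m m + sg e * (nu (m + 1) - mu (m + 1))) / 2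
  sn : ∀ e, h.s e (m + 1) = (h.x m m + sg e * (nu (m + 1) + mu (m + 1))) / 2

/-- The rhombus inequalities of a `D_{m+1}` hive (names as in `notes172/model.md`, indices shifted by one). -/
structure IsConc (m : ℕ) (h : Arr) : Prop where
  P1 : ∀ k t, k + 1 ≤ t → t + 1 ≤ m → 0 ≤ h.p1 k t
  P2 : ∀ k t, k + 1 ≤ t → t + 1 ≤ m → 0 ≤ h.p2 k t
  Pf : ∀ k e, k + 1 ≤ m → 0 ≤ h.pf m k e
  E1 : ∀ k t, k ≤ t → t + 2 ≤ m →
    h.y (k + 1) (t + 2) + h.x k t ≤ h.x k (t + 1) + h.y (k + 1) (t + 1)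
  E2 : ∀ k t, k + 1 ≤ t → t + 2 ≤ m →
    h.y (k + 1) (t + 2) + h.x (k + 1) t ≤ h.x (k + 1) (t + 1) + h.y (k + 1) (t + 1)
  E1f : ∀ k t e, t + 1 = m → k + 1 ≤ m →
    h.s e (k + 1) + h.x k t ≤ h.s (!e) k + h.y (k + 1) m
  E2f : ∀ k t e, t + 1 = m → k + 2 ≤ m →
    h.s e k + h.x (k + 1) t ≤ h.s (!e) (k + 1) + h.y (k + 1) m
  Bf : ∀ k e, k + 1 ≤ m → h.s e k + h.s (!e) (k + 2) ≤ h.s true (k + 1) + h.s false (k + 1)
  A : ∀ k t, k + 1 ≤ t → t + 1 ≤ m →
    h.y (k + 1) (t + 1) + h.x (k + 2) (t + 1) ≤ h.y (k + 2) (t + 1) + h.x (k + 1) (t + 1)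
  D : ∀ k t, k + 1 ≤ t → t + 1 ≤ m →
    h.x k (t + 1) + h.y (k + 2) (t + 1) ≤ h.x (k + 1) (t + 1) + h.y (k + 1) (t + 1)
  C : ∀ k t, k + 1 ≤ t → t + 1 ≤ m →
    h.x k t + h.y (k + 2) (t + 1) ≤ h.x (k + 1) t + h.y (k + 1) (t + 1)
  B : ∀ k t, k + 2 ≤ t → t + 1 ≤ m →
    h.y (k + 1) (t + 1) + h.x (k + 2) t ≤ h.y (k + 2) (t + 1) + h.x (k + 1) t

/-- A (rational) `D_{m+1}` hive. -/
def IsHive (m : ℕ) (lam mu nu : ℕ → ℚ) (h : Arr) : Prop := IsBdry m lam mu nu h ∧ IsConc m h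

/-- `q` is an integer. -/
def IsInt (q : ℚ) : Prop := ∃ z : ℤ, q = z

/-- Lattice condition: all Lusztig data are integers. -/
structure IsLat (m : ℕ) (h : Arr) : Prop where
  P1 : ∀ k t, k + 1 ≤ t → t + 1 ≤ m → IsInt (h.p1 k t)
  P2 : ∀ k t, k + 1 ≤ t → t + 1 ≤ m → IsInt (h.p2 k t)
  Pf : ∀ k e, k + 1 ≤ m → IsInt (h.pf m k e)

/-- Interface 1 (Littlewood–Richardson rule in hive form). -/
def S_LR : Prop :=
  ∀ (m : ℕ), 1 ≤ m → ∀ (a b c : Fin (m + 1) → ℤ),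
    IsDominantIntegral (m + 1) a → IsDominantIntegral (m + 1) b → IsDominantIntegral (m + 1) c →
    InRootLattice (m + 1) (a + b + c) →
    ∀ (U : Irrep (m + 1) a) (V : Irrep (m + 1) b) (W : Irrep (m + 1) c),
      HasInvariant U V W ↔ ∃ h : Arr, IsHive m (wt a) (wt b) (wt (dual c)) h ∧ IsLat m h

/-- Interface 2 (saturation of hives). -/
def S_SAT : Prop :=
  ∀ (m : ℕ), 1 ≤ m → ∀ (a b c : Fin (m + 1) → ℤ),
    IsDominantIntegral (m + 1) a → IsDominantIntegral (m + 1) b → IsDominantIntegral (m + 1) c →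
    InRootLattice (m + 1) (a + b + c) →
    (∃ h : Arr, IsHive m (wt a) (wt b) (wt (dual c)) h) →
      ∃ h : Arr, IsHive m (wt a) (wt b) (wt (dual c)) h ∧ IsLat m h

/-- scaling of an array -/
def Arr.smul (q : ℚ) (h : Arr) : Arr :=
  ⟨fun k t => q * h.x k t, fun k t => q * h.y k t, fun e k => q * h.s e k⟩

theorem IsHive.smul {m : ℕ} {lam mu nu : ℕ → ℚ} {h : Arr} (H : IsHive m lam mu nu h) {q : ℚ}
    (hq : 0 ≤ q) :
    IsHive m (fun i => q * lam i) (fun i => q * mu i) (fun i => q * nu i) (h.smul q) := by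
  obtain ⟨b, c⟩ := H
  refine ⟨⟨?_, ?_, ?_, ?_, ?_, ?_, ?_, ?_⟩, ⟨?_, ?_, ?_, ?_, ?_, ?_, ?_, ?_, ?_, ?_, ?_, ?_⟩⟩
  · simp [Arr.smul, b.x00]
  · intro t ht; simp only [Arr.smul]; rw [b.x0 t ht]; ring
  · intro t ht; simp only [Arr.smul]; rw [b.yd t ht]; ring
  · intro t ht; simp only [Arr.smul]; rw [b.xd t ht]; ring
  · intro t ht; simp only [Arr.smul]; rw [b.top t ht]; ring
  · intro e; simp only [Arr.smul]; rw [b.s0 e]; ring
  · intro e; simp only [Arr.smul]; rw [b.sm e]; ring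
  · intro e; simp only [Arr.smul]; rw [b.sn e]; ring
  · intro k t h1 h2; have := mul_nonneg hq (c.P1 k t h1 h2)
    simp only [Arr.smul, Arr.p1] at this ⊢; linarith
  · intro k t h1 h2; have := mul_nonneg hq (c.P2 k t h1 h2)
    simp only [Arr.smul, Arr.p2] at this ⊢; linarith
  · intro k e h1; have := mul_nonneg hq (c.Pf k e h1)
    simp only [Arr.smul, Arr.pf] at this ⊢; linarith
  · intro k t h1 h2; have := mul_le_mul_of_nonneg_left (c.E1 k t h1 h2) hq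
    simp only [Arr.smul] at this ⊢; linarith
  · intro k t h1 h2; have := mul_le_mul_of_nonneg_left (c.E2 k t h1 h2) hq
    simp only [Arr.smul] at this ⊢; linarith
  · intro k t e h1 h2; have := mul_le_mul_of_nonneg_left (c.E1f k t e h1 h2) hq
    simp only [Arr.smul] at this ⊢; linarith
  · intro k t e h1 h2; have := mul_le_mul_of_nonneg_left (c.E2f k t e h1 h2) hq
    simp only [Arr.smul] at this ⊢; linarith
  · intro k e h1; have := mul_le_mul_of_nonneg_left (c.Bf k e h1) hq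
    simp only [Arr.smul] at this ⊢; linarith
  · intro k t h1 h2; have := mul_le_mul_of_nonneg_left (c.A k t h1 h2) hq
    simp only [Arr.smul] at this ⊢; linarith
  · intro k t h1 h2; have := mul_le_mul_of_nonneg_left (c.D k t h1 h2) hq
    simp only [Arr.smul] at this ⊢; linarith
  · intro k t h1 h2; have := mul_le_mul_of_nonneg_left (c.C k t h1 h2) hq
    simp only [Arr.smul] at this ⊢; linarith
  · intro k t h1 h2; have := mul_le_mul_of_nonneg_left (c.B k t h1 h2) hq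
    simp only [Arr.smul] at this ⊢; linarith

theorem IsLat.smul {m : ℕ} {h : Arr} (H : IsLat m h) (N : ℕ) : IsLat m (h.smul N) := by
  refine ⟨?_, ?_, ?_⟩
  · intro k t h1 h2; obtain ⟨z, hz⟩ := H.P1 k t h1 h2
    refine ⟨N * z, ?_⟩; push_cast; rw [← hz]; simp only [Arr.smul, Arr.p1]; ring
  · intro k t h1 h2; obtain ⟨z, hz⟩ := H.P2 k t h1 h2
    refine ⟨N * z, ?_⟩; push_cast; rw [← hz]; simp only [Arr.smul, Arr.p2]; ring
  · intro k e h1; obtain ⟨z, hz⟩ := H.Pf k e h1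
    refine ⟨N * z, ?_⟩; push_cast; rw [← hz]; simp only [Arr.smul, Arr.pf]; ring

theorem wt_nsmul {n : ℕ} (a : Fin n → ℤ) (N : ℕ) : wt (N • a) = fun i => (N : ℚ) * wt a i := by
  funext i; unfold wt; split_ifs with h
  · simp; ring
  · simp

theorem dual_nsmul {n : ℕ} (c : Fin n → ℤ) (N : ℕ) : dual (N • c) = N • dual c := by
  funext i; simp only [dual, Pi.smul_apply, nsmul_eq_mul]; split_ifs <;> ring

theorem dom_nsmul {n : ℕ} {a : Fin n → ℤ} (ha : IsDominantIntegral n a) (N : ℕ) :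
    IsDominantIntegral n (N • a) := by
  obtain ⟨h1, h2, h3⟩ := ha
  refine ⟨fun i j => ?_, fun i j hij hj => ?_, fun i j hi hj => ?_⟩
  · simp only [Pi.smul_apply, nsmul_eq_mul]; rw [← mul_sub]; exact (h1 i j).mul_left _
  · simp only [Pi.smul_apply, nsmul_eq_mul]
    exact mul_le_mul_of_nonneg_left (h2 i j hij hj) (by positivity)
  · simp only [Pi.smul_apply, nsmul_eq_mul]; rw [abs_mul, abs_of_nonneg (by positivity)]
    exact mul_le_mul_of_nonneg_left (h3 i j hi hj) (by positivity)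

theorem root_nsmul {n : ℕ} {a b c : Fin n → ℤ} (h : InRootLattice n (a + b + c)) (N : ℕ) :
    InRootLattice n (N • a + N • b + N • c) := by
  rw [← smul_add, ← smul_add]
  obtain ⟨h1, h2⟩ := h
  refine ⟨fun i => ?_, ?_⟩
  · simp only [Pi.smul_apply, nsmul_eq_mul]; exact (h1 i).mul_left _
  · simp only [Pi.smul_apply, nsmul_eq_mul]; rw [← Finset.mul_sum]; exact h2.mul_left _

/-- The final assembly: S0260 from the two interfaces. -/
theorem main_of (hLR : S_LR) (hSAT : S_SAT) (n : ℕ) (hn : 2 ≤ n) (a b c : Fin n → ℤ)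
    (ha : IsDominantIntegral n a) (hb : IsDominantIntegral n b) (hc : IsDominantIntegral n c)
    (habc : InRootLattice n (a + b + c)) (N : ℕ) (hN : 1 ≤ N)
    (U : Irrep n a) (V : Irrep n b) (W : Irrep n c)
    (U' : Irrep n (N • a)) (V' : Irrep n (N • b)) (W' : Irrep n (N • c)) :
    HasInvariant U V W ↔ HasInvariant U' V' W' := by
  obtain ⟨m, rfl⟩ : ∃ m, n = m + 1 := ⟨n - 1, by omega⟩
  have hm : 1 ≤ m := by omega
  rw [hLR m hm a b c ha hb hc habc U V W,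
    hLR m hm _ _ _ (dom_nsmul ha N) (dom_nsmul hb N) (dom_nsmul hc N) (root_nsmul habc N) U' V' W',
    dual_nsmul, wt_nsmul, wt_nsmul, wt_nsmul]
  constructor
  · rintro ⟨h, H, L⟩
    exact ⟨h.smul N, H.smul (by positivity), L.smul N⟩
  · rintro ⟨h, H, -⟩
    refine hSAT m hm a b c ha hb hc habc ⟨h.smul (N : ℚ)⁻¹, ?_⟩
    have hN' : (N : ℚ) ≠ 0 := by positivity
    have := H.smul (q := (N : ℚ)⁻¹) (by positivity)
    simpa only [← mul_assoc, inv_mul_cancel₀ hN', one_mul] using this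

end Crest.Agent.R172
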