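import Crest.Agent.R172.C.L1
import Crest.Agent.R172.P.Main

/-! Row 172: the Littlewood–Richardson rule for `Spin(2n)` in hive form. -/

set_option autoImplicit false

namespace Crest.Agent.R172

theorem s_LR : S_LR := lr_of s_L1 P.s_L2

end Crest.Agent.R172
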